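import Vale.Agent.P124.Swap
import Vale.Agent.P124.Hotel

namespace Vale.Agent.Results.P124.Counter

open Vale.Agent.P124

theorem result : ∃ (X Y : Type) (_ : NormedAddCommGroup X) (_ : NormedSpace ℝ X)
    (_ : CompleteSpace X) (_ : TopologicalSpace.SeparableSpace X)
    (_ : NormedAddCommGroup Y) (_ : NormedSpace ℝ Y)
    (_ : CompleteSpace Y) (_ : TopologicalSpace.SeparableSpace Y),
    (∃ f : X → Y, Function.Bijective f ∧ ∃ c C : ℝ, 0 < c ∧ c ≤ C ∧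
      ∀ x x' : X, c * ‖x - x'‖ ≤ ‖f x - f x'‖ ∧ ‖f x - f x'‖ ≤ C * ‖x - x'‖) ∧
    ¬ ∃ T : X →L[ℝ] Y, Function.Bijective T := by
  have h1 : |(1 : ℝ)| = 1 := abs_one
  have h2 : |(-1 : ℝ)| = 1 := by rw [abs_neg, abs_one]
  have hs : TopologicalSpace.SeparableSpace (lp (fun _ : ℕ => ZZ) 1) := l1_sep
  refine ⟨C0 × lp (fun _ : ℕ => ZZ) 1, lp (fun _ : ℕ => ZZ) 1, inferInstance, inferInstance,
    inferInstance, inferInstance, inferInstance, inferInstance, inferInstance, hs,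
    hotel (F := sw 1) (B := sw (-1)) (L := 10 * ww 0) ⟨sw_zero h1, sw_lip h1⟩
      ⟨sw_zero h2, sw_lip h2⟩ (mul_pos (by norm_num) (ww_pos 0)).le (fun x => ?_) (sw_sw h1),
    not_iso PP_Z.l1⟩
  have := sw_sw h2 x
  rwa [neg_neg] at this

end Vale.Agent.Results.P124.Counter
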